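import Mathlib

/-! Areas of projected triangles. -/

set_option linter.unusedSimpArgs false

namespace Vale.Agent.P243

open MeasureTheory Set
open scoped RealInnerProductSpace

def det3 (u v w : EuclideanSpace ℝ (Fin 3)) : ℝ :=
  u 0 * (v 1 * w 2 - v 2 * w 1) - u 1 * (v 0 * w 2 - v 2 * w 0) + u 2 * (v 0 * w 1 - v 1 * w 0)

theorem inner3 (v w : EuclideanSpace ℝ (Fin 3)) : ⟪v, w⟫ = v 0 * w 0 + v 1 * w 1 + v 2 * w 2 := by
  simp [PiLp.inner_apply, Fin.sum_univ_three]; ring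

theorem proj_val {u : EuclideanSpace ℝ (Fin 3)} (hu : ‖u‖ = 1) (v : EuclideanSpace ℝ (Fin 3)) :
    (((ℝ ∙ u)ᗮ.orthogonalProjectionOnto v : (ℝ ∙ u)ᗮ) : EuclideanSpace ℝ (Fin 3))
      = v - ⟪u, v⟫ • u := by
  rw [← Submodule.starProjection_unit_singleton ℝ hu, ← Submodule.starProjection_orthogonal_val]
  rfl

theorem unit_sq {u : EuclideanSpace ℝ (Fin 3)} (hu : ‖u‖ = 1) :
    u 0 * u 0 + u 1 * u 1 + u 2 * u 2 = 1 := by
  rw [← inner3, real_inner_self_eq_norm_sq, hu]; norm_num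

theorem area_image {u : EuclideanSpace ℝ (Fin 3)} (hu : ‖u‖ = 1) (p v w : EuclideanSpace ℝ (Fin 3))
    (S : Set (Fin 2 → ℝ)) :
    volume ((fun c : Fin 2 → ℝ => (ℝ ∙ u)ᗮ.orthogonalProjectionOnto (p + c 0 • v + c 1 • w)) '' S)
      = ENNReal.ofReal |det3 u v w| * volume S := by
  have hu0 : u ≠ 0 := by rintro rfl; simp at hu
  have : Fact (Module.finrank ℝ (EuclideanSpace ℝ (Fin 3)) = 2 + 1) := ⟨by simp⟩
  let e : OrthonormalBasis (Fin 2) ℝ (ℝ ∙ u)ᗮ := OrthonormalBasis.fromOrthogonalSpanSingleton 2 hu0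
  set π := (ℝ ∙ u)ᗮ.orthogonalProjectionOnto
  let Ψ : (ℝ ∙ u)ᗮ ≃ᵐ (Fin 2 → ℝ) := e.measurableEquiv.trans (MeasurableEquiv.toLp 2 (Fin 2 → ℝ)).symm
  have hΨ : MeasurePreserving Ψ volume volume :=
    (EuclideanSpace.volume_preserving_symm_measurableEquiv_toLp (Fin 2)).comp
      e.measurePreserving_measurableEquiv
  have hΨa : ∀ x i, Ψ x i = ⟪e i, x⟫ := fun x i => e.repr_apply_apply x i
  let M : Matrix (Fin 2) (Fin 2) ℝ := !![⟪e 0, π v⟫, ⟪e 0, π w⟫; ⟪e 1, π v⟫, ⟪e 1, π w⟫]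
  have hM : ∀ c : Fin 2 → ℝ, Ψ (c 0 • π v + c 1 • π w) = Matrix.toLin' M c := by
    intro c
    funext i
    rw [hΨa]
    fin_cases i <;>
      simp [M, Matrix.mulVec, dotProduct, Fin.sum_univ_two, inner_add_right, inner_smul_right] <;> ring
  have h1 : (fun c : Fin 2 → ℝ => π (p + c 0 • v + c 1 • w)) '' S
      = (fun h => -π p + h) ⁻¹' (Ψ ⁻¹' (Matrix.toLin' M '' S)) := by
    ext x
    simp only [mem_image, mem_preimage, ← hM, EmbeddingLike.apply_eq_iff_eq, map_add, map_smul]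
    constructor
    · rintro ⟨c, hc, rfl⟩; exact ⟨c, hc, by abel⟩
    · rintro ⟨c, hc, h⟩; exact ⟨c, hc, by rw [add_assoc, h]; abel⟩
  rw [h1, measure_preimage_add, hΨ.measure_preimage_equiv, Measure.addHaar_image_linearMap,
    LinearMap.det_toLin']
  congr 2
  rw [← sq_eq_sq_iff_abs_eq_abs]
  have g : ∀ x y, ⟪e 0, π x⟫ * ⟪e 0, π y⟫ + ⟪e 1, π x⟫ * ⟪e 1, π y⟫ = ⟪x, y⟫ - ⟪u, x⟫ * ⟪u, y⟫ := by
    intro x y
    have := e.sum_inner_mul_inner (π x) (π y)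
    rw [Fin.sum_univ_two, real_inner_comm (e 0), real_inner_comm (e 1)] at this
    rw [this, Submodule.coe_inner, proj_val hu, proj_val hu]
    simp only [inner3, PiLp.sub_apply, PiLp.smul_apply, smul_eq_mul]
    linear_combination ((u 0 * x 0 + u 1 * x 1 + u 2 * x 2) * (u 0 * y 0 + u 1 * y 1 + u 2 * y 2))
      * unit_sq hu
  have e1 : M.det ^ 2 = (⟪v, v⟫ - ⟪u, v⟫ * ⟪u, v⟫) * (⟪w, w⟫ - ⟪u, w⟫ * ⟪u, w⟫)
      - (⟪v, w⟫ - ⟪u, v⟫ * ⟪u, w⟫) ^ 2 := by
    rw [← g, ← g, ← g, Matrix.det_fin_two_of]; ring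
  rw [e1]
  simp only [inner3, det3]
  linear_combination (-((v 0 * v 0 + v 1 * v 1 + v 2 * v 2) * (w 0 * w 0 + w 1 * w 1 + w 2 * w 2)
    - (v 0 * w 0 + v 1 * w 1 + v 2 * w 2) ^ 2)) * unit_sq hu

theorem vol_aux (T : Set (ℝ × ℝ)) (hT : MeasurableSet T)
    (h : ∀ x, volume (Prod.mk x ⁻¹' T) = (Icc (0 : ℝ) 1).indicator (fun x => ENNReal.ofReal (1 - x)) x) :
    volume T = ENNReal.ofReal (1 / 2) := by
  rw [Measure.volume_eq_prod, Measure.prod_apply hT]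
  simp only [h]
  rw [lintegral_indicator measurableSet_Icc, ← ofReal_integral_eq_lintegral_ofReal]
  · rw [integral_Icc_eq_integral_Ioc, ← intervalIntegral.integral_of_le zero_le_one]
    congr 1
    rw [intervalIntegral.integral_sub (by simp) (by simp)]
    simp; norm_num
  · exact (by fun_prop : Continuous fun x : ℝ => 1 - x).integrableOn_Icc
  · filter_upwards [ae_restrict_mem measurableSet_Icc] with x hx
    simpa using hx.2

def triC : Set (Fin 2 → ℝ) := {c | 0 ≤ c 0 ∧ 0 ≤ c 1 ∧ c 0 + c 1 ≤ 1}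
def triO : Set (Fin 2 → ℝ) := {c | 0 ≤ c 0 ∧ 0 < c 1 ∧ c 0 + c 1 ≤ 1}

theorem vol_triC : volume triC = ENNReal.ofReal (1 / 2) := by
  have := (volume_preserving_finTwoArrow ℝ).measure_preimage_equiv
    {p : ℝ × ℝ | 0 ≤ p.1 ∧ 0 ≤ p.2 ∧ p.1 + p.2 ≤ 1}
  refine Eq.trans this (vol_aux _ (by measurability) fun x => ?_)
  by_cases hx : 0 ≤ x
  · have : Prod.mk x ⁻¹' {p : ℝ × ℝ | 0 ≤ p.1 ∧ 0 ≤ p.2 ∧ p.1 + p.2 ≤ 1} = Icc 0 (1 - x) := by
      ext y; simp [hx]; intro; constructor <;> intro <;> linarith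
    rw [this, Real.volume_Icc]
    by_cases h1 : x ≤ 1
    · simp [hx, h1]
    · simp [h1]; linarith
  · have : Prod.mk x ⁻¹' {p : ℝ × ℝ | 0 ≤ p.1 ∧ 0 ≤ p.2 ∧ p.1 + p.2 ≤ 1} = ∅ := by
      ext y; simp [hx]
    simp [this, hx]

theorem vol_triO : volume triO = ENNReal.ofReal (1 / 2) := by
  have := (volume_preserving_finTwoArrow ℝ).measure_preimage_equiv
    {p : ℝ × ℝ | 0 ≤ p.1 ∧ 0 < p.2 ∧ p.1 + p.2 ≤ 1}
  refine Eq.trans this (vol_aux _ (by measurability) fun x => ?_)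
  by_cases hx : 0 ≤ x
  · have : Prod.mk x ⁻¹' {p : ℝ × ℝ | 0 ≤ p.1 ∧ 0 < p.2 ∧ p.1 + p.2 ≤ 1} = Ioc 0 (1 - x) := by
      ext y; simp [hx]; intro; constructor <;> intro <;> linarith
    rw [this, Real.volume_Ioc]
    by_cases h1 : x ≤ 1
    · simp [hx, h1]
    · simp [h1]; linarith
  · have : Prod.mk x ⁻¹' {p : ℝ × ℝ | 0 ≤ p.1 ∧ 0 < p.2 ∧ p.1 + p.2 ≤ 1} = ∅ := by
      ext y; simp [hx]
    simp [this, hx]

theorem isCompact_triC : IsCompact triC := by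
  refine (isCompact_Icc (a := (0 : Fin 2 → ℝ)) (b := 1)).of_isClosed_subset ?_ ?_
  · exact (isClosed_le continuous_const (continuous_apply 0)).inter
      ((isClosed_le continuous_const (continuous_apply 1)).inter
        (isClosed_le ((continuous_apply 0).add (continuous_apply 1)) continuous_const))
  · rintro c ⟨h0, h1, h2⟩
    constructor <;> intro i <;> fin_cases i <;> simp <;> linarith

theorem tri_sub {K : Set (EuclideanSpace ℝ (Fin 3))} (hK : Convex ℝ K) {A B C} (hA : A ∈ K)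
    (hB : B ∈ K) (hC : C ∈ K) {c : Fin 2 → ℝ} (hc : c ∈ triO) :
    A + c 0 • (B - A) + c 1 • (C - A) ∈ K := by
  have := hK.sum_mem (t := Finset.univ) (w := ![1 - c 0 - c 1, c 0, c 1]) (z := ![A, B, C])
    (by intro i _; fin_cases i <;> simp <;> linarith [hc.1, hc.2.1, hc.2.2])
    (by simp [Fin.sum_univ_three]; ring) (by intro i _; fin_cases i <;> simpa)
  convert this using 1
  simp [Fin.sum_univ_three]; module

theorem face_le {u : EuclideanSpace ℝ (Fin 3)} (hu : ‖u‖ = 1) {K : Set (EuclideanSpace ℝ (Fin 3))}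
    (hK : Convex ℝ K) {A B C} (hA : A ∈ K) (hB : B ∈ K) (hC : C ∈ K) :
    ENNReal.ofReal (|det3 u (B - A) (C - A)| / 2) ≤ volume ((ℝ ∙ u)ᗮ.orthogonalProjectionOnto '' K) := by
  rw [div_eq_mul_one_div, ENNReal.ofReal_mul (abs_nonneg _), ← vol_triO, ← area_image hu A]
  refine measure_mono ?_
  rintro _ ⟨c, hc, rfl⟩
  exact ⟨_, tri_sub hK hA hB hC hc, rfl⟩

theorem quad_aux {u : EuclideanSpace ℝ (Fin 3)} (hu : ‖u‖ = 1) {K : Set (EuclideanSpace ℝ (Fin 3))}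
    (hK : Convex ℝ K) {A B C D} (hA : A ∈ K) (hB : B ∈ K) (hC : C ∈ K) (hD : D ∈ K)
    (h1 : 0 < det3 u (B - A) (C - A)) (h2 : det3 u (B - A) (D - A) < 0) :
    ENNReal.ofReal (|det3 u (B - A) (C - A)| / 2 + |det3 u (B - A) (D - A)| / 2)
      ≤ volume ((ℝ ∙ u)ᗮ.orthogonalProjectionOnto '' K) := by
  let H : Set (ℝ ∙ u)ᗮ := {x | 0 < det3 u (B - A) (x - A)}
  have hH : MeasurableSet H := by
    refine (isOpen_lt continuous_const ?_).measurableSet
    unfold det3; fun_prop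
  have key : ∀ (E : EuclideanSpace ℝ (Fin 3)) (c : Fin 2 → ℝ), det3 u (B - A)
      (((ℝ ∙ u)ᗮ.orthogonalProjectionOnto (A + c 0 • (B - A) + c 1 • (E - A)) : (ℝ ∙ u)ᗮ) - A)
      = c 1 * det3 u (B - A) (E - A) := by
    intro E c
    rw [proj_val hu]
    generalize ⟪u, A + c 0 • (B - A) + c 1 • (E - A)⟫ = r
    simp only [det3, PiLp.sub_apply, PiLp.add_apply, PiLp.smul_apply, smul_eq_mul]
    ring
  rw [← measure_inter_add_sdiff _ hH, ENNReal.ofReal_add (by positivity) (by positivity)]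
  refine add_le_add ?_ ?_
  · rw [div_eq_mul_one_div, ENNReal.ofReal_mul (abs_nonneg _), ← vol_triO, ← area_image hu A]
    refine measure_mono ?_
    rintro _ ⟨c, hc, rfl⟩
    refine ⟨⟨_, tri_sub hK hA hB hC hc, rfl⟩, ?_⟩
    simp only [H, mem_ofPred_eq]
    rw [key]; exact mul_pos hc.2.1 h1
  · rw [div_eq_mul_one_div, ENNReal.ofReal_mul (abs_nonneg _), ← vol_triO, ← area_image hu A]
    refine measure_mono ?_
    rintro _ ⟨c, hc, rfl⟩
    refine ⟨⟨_, tri_sub hK hA hB hD hc, rfl⟩, ?_⟩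
    simp only [H, mem_ofPred_eq]
    rw [key]; exact not_lt.2 (mul_nonpos_of_nonneg_of_nonpos hc.2.1.le h2.le)

theorem quad_le {u : EuclideanSpace ℝ (Fin 3)} (hu : ‖u‖ = 1) {K : Set (EuclideanSpace ℝ (Fin 3))}
    (hK : Convex ℝ K) {A B C D} (hA : A ∈ K) (hB : B ∈ K) (hC : C ∈ K) (hD : D ∈ K) :
    ENNReal.ofReal (|det3 u (B - A) (C - D)| / 2) ≤ volume ((ℝ ∙ u)ᗮ.orthogonalProjectionOnto '' K) := by
  have e : det3 u (B - A) (C - D) = det3 u (B - A) (C - A) - det3 u (B - A) (D - A) := by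
    simp only [det3, PiLp.sub_apply]; ring
  rw [e]
  have f1 := face_le hu hK hA hB hC
  have f2 := face_le hu hK hA hB hD
  have q1 := quad_aux hu hK hA hB hC hD
  have q2 := quad_aux hu hK hA hB hD hC
  set x := det3 u (B - A) (C - A)
  set y := det3 u (B - A) (D - A)
  by_cases h1 : 0 < x ∧ y < 0
  · exact le_trans (ENNReal.ofReal_le_ofReal (by linarith [abs_sub x y])) (q1 h1.1 h1.2)
  by_cases h2 : 0 < y ∧ x < 0
  · exact le_trans (ENNReal.ofReal_le_ofReal (by linarith [abs_sub x y])) (q2 h2.1 h2.2)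
  by_cases h3 : |x - y| ≤ |x|
  · exact le_trans (ENNReal.ofReal_le_ofReal (by linarith)) f1
  · refine le_trans (ENNReal.ofReal_le_ofReal ?_) f2
    push Not at h1 h2 h3
    rcases abs_cases x with a | a <;> rcases abs_cases y with b | b <;>
      rcases abs_cases (x - y) with c | c <;> rcases lt_trichotomy x 0 with d | d | d <;>
      rcases lt_trichotomy y 0 with f | f | f <;>
      first | linarith | (exfalso; linarith [h1 d]) | (exfalso; linarith [h2 f])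

end Vale.Agent.P243
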