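import Mathlib

/-! Real inequalities for the angular cylinder cover. -/

namespace Vale.Agent.P243

theorem abs_mul_le' {x y X Y : ℝ} (hx : |x| ≤ X) (hy : |y| ≤ Y) : |x * y| ≤ X * Y := by
  rw [abs_mul]; exact mul_le_mul hx hy (abs_nonneg _) ((abs_nonneg _).trans hx)

/-- the depth of the cut -/
noncomputable def dl (ε η : ℝ) : ℝ := ε ^ 2 * (2 * η ^ 2 + 2 * η ^ 4 + 1 / 30)

theorem dl_nonneg (ε η : ℝ) : 0 ≤ dl ε η := by unfold dl; positivity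

theorem one_sub_sq {η : ℝ} (h : |η| ≤ 1) : |1 - η ^ 2| ≤ 1 := by
  have : η ^ 2 ≤ 1 := by rw [← sq_abs]; exact pow_le_one₀ (abs_nonneg _) h
  rw [abs_le]; constructor <;> nlinarith [sq_nonneg η]

theorem err_bound {ε η a b s : ℝ} (hε : ε = 1 / 10000) (hη : |η| ≤ 1) (ha : |a| ≤ 2) (hs : |s| ≤ 1)
    (h2 : b - (η + ε ^ 2) * (1 - s) - ε * a * (1 - (η + ε ^ 2) ^ 2) ≤ 0) :
    b - η * (1 - s) - ε * a * (1 - η ^ 2) ≤ 3 * ε ^ 2 := by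
  have h3 : |2 * η + ε ^ 2| ≤ 3 := by
    rw [abs_le] at hη ⊢; subst hε; constructor <;> norm_num <;> linarith
  have h4 := abs_le.1 (abs_mul_le' ha h3)
  have h5 := abs_le.1 hs
  have : b - η * (1 - s) - ε * a * (1 - η ^ 2) = (b - (η + ε ^ 2) * (1 - s) - ε * a * (1 - (η + ε ^ 2) ^ 2))
    + ε ^ 2 * ((1 - s) - ε * (a * (2 * η + ε ^ 2))) := by ring
  rw [this]
  subst hε
  linarith [h4.1, h5.1]

set_option maxHeartbeats 1600000 in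
theorem cover_ineq {ε η ξ a b s : ℝ} (hε : ε = 1 / 10000) (hη : |η| ≤ 1) (hξ : |ξ| ≤ 1)
    (ha : |a| ≤ 2) (hb : |b| ≤ 2) (hs : |s| ≤ 1)
    (h1 : 0 ≤ b - η * (1 - s) - ε * a * (1 - η ^ 2))
    (h2 : b - (η + ε ^ 2) * (1 - s) - ε * a * (1 - (η + ε ^ 2) ^ 2) ≤ 0)
    (h3 : 0 ≤ -a - ξ * (1 - -s) - ε * b * (1 - ξ ^ 2))
    (h4 : -a - (ξ + ε ^ 2) * (1 - -s) - ε * b * (1 - (ξ + ε ^ 2) ^ 2) ≤ 0)
    (h5 : s + ε * a * (η + (η + ε ^ 2)) < -dl ε η)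
    (h6 : -s + ε * b * (ξ + (ξ + ε ^ 2)) < -dl ε ξ) : False := by
  have e1 := err_bound hε hη ha hs h2
  have e2 := err_bound hε hξ hb (by rwa [abs_neg]) h4
  set E1 := b - η * (1 - s) - ε * a * (1 - η ^ 2) with hE1
  set E2 := -a - ξ * (1 - -s) - ε * b * (1 - ξ ^ 2) with hE2
  have hε0 : 0 < ε := by rw [hε]; norm_num
  have hη3 : |η + (η + ε ^ 2)| ≤ 3 := by
    rw [abs_le] at hη ⊢; subst hε; constructor <;> norm_num <;> linarith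
  have hξ3 : |ξ + (ξ + ε ^ 2)| ≤ 3 := by
    rw [abs_le] at hξ ⊢; subst hε; constructor <;> norm_num <;> linarith
  have d1 := dl_nonneg ε η
  have d2 := dl_nonneg ε ξ
  have s1 : |s| ≤ 6 * ε := by
    have t1 := abs_le.1 (abs_mul_le' ha hη3)
    have t2 := abs_le.1 (abs_mul_le' hb hξ3)
    rw [abs_le]; subst hε; constructor <;> linarith [t1.1, t1.2, t2.1, t2.2]
  have hE1a : |E1| ≤ 3 * ε ^ 2 := by rwa [abs_of_nonneg h1]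
  have hE2a : |E2| ≤ 3 * ε ^ 2 := by rwa [abs_of_nonneg h3]
  clear_value E1 E2
  have r1 : |a + ξ| ≤ 9 * ε := by
    have t1 := abs_le.1 (abs_mul_le' hξ s1)
    have t2 := abs_le.1 (abs_mul_le' hb (one_sub_sq hξ))
    have : a + ξ = -(ξ * s) - ε * (b * (1 - ξ ^ 2)) - E2 := by rw [hE2]; ring
    rw [this, abs_le]; subst hε; constructor <;> linarith [t1.1, t1.2, t2.1, t2.2]
  have r2 : |b - η| ≤ 9 * ε := by
    have t1 := abs_le.1 (abs_mul_le' hη s1)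
    have t2 := abs_le.1 (abs_mul_le' ha (one_sub_sq hη))
    have : b - η = -(η * s) + ε * (a * (1 - η ^ 2)) + E1 := by rw [hE1]; ring
    rw [this, abs_le]; subst hε; constructor <;> linarith [t1.1, t1.2, t2.1, t2.2]
  have r3 : |s - 2 * ε * ξ * η| ≤ 28 * ε ^ 2 := by
    have t1 := abs_le.1 (abs_mul_le' r1 hη3)
    have t2 := abs_le.1 (abs_mul_le' r2 hξ3)
    have t3 := abs_le.1 hξ
    have t4 := abs_le.1 hη
    have u1 : ε * a * (η + (η + ε ^ 2)) = -(2 * ε * ξ * η) - ε ^ 3 * ξ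
      + ε * ((a + ξ) * (η + (η + ε ^ 2))) := by ring
    have u2 : ε * b * (ξ + (ξ + ε ^ 2)) = 2 * ε * ξ * η + ε ^ 3 * η
      + ε * ((b - η) * (ξ + (ξ + ε ^ 2))) := by ring
    rw [u1] at h5; rw [u2] at h6
    rw [abs_le]; subst hε
    constructor <;> linarith [t1.1, t1.2, t2.1, t2.2, t3.1, t3.2, t4.1, t4.2]
  have t1 := abs_le.1 (abs_mul_le' r3 (abs_mul_le' hξ hη))
  have t2 := abs_le.1 (abs_mul_le' r2 (abs_mul_le' hη (one_sub_sq hξ)))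
  have t3 := abs_le.1 (abs_mul_le' r1 (abs_mul_le' hξ (one_sub_sq hη)))
  have t4 := abs_le.1 (abs_mul_le' hE2a hη)
  have t5 := abs_le.1 (abs_mul_le' hE1a hξ)
  have t6 := abs_le.1 ha
  have t7 := abs_le.1 hb
  have hb' : b = η * (1 - s) + ε * a * (1 - η ^ 2) + E1 := by rw [hE1]; ring
  have ha' : a = -(ξ * (1 + s)) - ε * b * (1 - ξ ^ 2) - E2 := by rw [hE2]; ring
  have key : a * η + b * ξ = -(ε * (2 * ξ ^ 2 * η ^ 2 + η ^ 2 + ξ ^ 2))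
      - 2 * ((s - 2 * ε * ξ * η) * (ξ * η)) - ε * ((b - η) * (η * (1 - ξ ^ 2)))
      + ε * ((a + ξ) * (ξ * (1 - η ^ 2))) - E2 * η + E1 * ξ := by
    linear_combination η * ha' + ξ * hb'
  have hsum : ε * a * (η + (η + ε ^ 2)) + ε * b * (ξ + (ξ + ε ^ 2))
      = 2 * ε * (a * η + b * ξ) + ε ^ 3 * (a + b) := by ring
  have am : 2 * ξ ^ 2 * η ^ 2 ≤ η ^ 4 + ξ ^ 4 := by nlinarith [sq_nonneg (η ^ 2 - ξ ^ 2)]
  have h7 : 2 * ε * (a * η + b * ξ) + ε ^ 3 * (a + b) < -dl ε η - dl ε ξ := by linarith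
  rw [key] at h7
  unfold dl at h7
  subst hε
  linarith [t1.1, t1.2, t2.1, t2.2, t3.1, t3.2, t4.1, t4.2, t5.1, t5.2, t6.1, t6.2, t7.1, t7.2]

theorem inv_sqrt_le {t : ℝ} (ht : 0 ≤ t) : (√((1 + t) / 2))⁻¹ ≤ √2 * (1 - t / 2 + t ^ 2 / 2) := by
  have h1 : 0 < 1 - t / 2 + t ^ 2 / 2 := by nlinarith [sq_nonneg (t - 1 / 2)]
  rw [inv_le_comm₀ (by positivity) (by positivity)]
  refine Real.le_sqrt_of_sq_le ?_
  rw [inv_pow, mul_pow, Real.sq_sqrt (by norm_num), inv_le_comm₀ (by positivity) (by positivity),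
    inv_div, div_le_iff₀ (by positivity)]
  have : 2 * (1 - t / 2 + t ^ 2 / 2) ^ 2 * (1 + t) - 2 = t ^ 2 * (1 + 3 * t - t ^ 2 + t ^ 3) / 2 := by
    ring
  have h2 : 0 ≤ 1 + 3 * t - t ^ 2 + t ^ 3 := by nlinarith [mul_nonneg ht (sq_nonneg (t - 1))]
  have : 0 ≤ t ^ 2 * (1 + 3 * t - t ^ 2 + t ^ 3) / 2 := by positivity
  linarith

noncomputable def Phi (x : ℝ) : ℝ := -x ^ 3 / 3 + 7 / 10 * x ^ 5

theorem cell_ineq {ε η t : ℝ} (hε : ε = 1 / 10000) (hη : |η| ≤ 1) (hη' : |η + ε ^ 2| ≤ 1)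
    (ht : t = (ε * (1 + η * (η + ε ^ 2))) ^ 2 + 2 * (ε * (η + (η + ε ^ 2))) ^ 2) :
    ε ^ 2 * (1 + dl ε η) ^ 2 * (1 - t / 2 + t ^ 2 / 2)
      ≤ ε ^ 2 * (1 - ε ^ 2 * (2 / 5)) + ε ^ 2 * (Phi (η + ε ^ 2) - Phi η) := by
  have hε0 : 0 < ε := by rw [hε]; norm_num
  have a1 := abs_le.1 hη
  have a1' := abs_le.1 hη'
  have a2 : η ^ 2 ≤ 1 := by nlinarith
  have a3 := abs_le.1 (abs_mul_le' hη (show |η ^ 2| ≤ 1 by rwa [abs_of_nonneg (sq_nonneg _)]))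
  have a4 : η ^ 4 ≤ 1 := by nlinarith [sq_nonneg η]
  have a5 := abs_le.1 (abs_mul_le' hη hη')
  set Δ := ε ^ 2 with hΔ
  have hΔ1 : Δ = 1 / 10 ^ 8 := by rw [hΔ, hε]; norm_num
  have hΔ0 : 0 < Δ := by positivity
  obtain ⟨T, hT⟩ : ∃ T, T = (1 + η * (η + Δ)) ^ 2 + 2 * (η + (η + Δ)) ^ 2 := ⟨_, rfl⟩
  have htT : t = Δ * T := by rw [ht, hT, hΔ]; ring
  have T0 : 0 ≤ T := by rw [hT]; positivity
  have T1 : T ≤ 12 := by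
    rw [hT]
    have q1 : (1 + η * (η + Δ)) ^ 2 ≤ 2 ^ 2 := sq_le_sq' (by linarith) (by linarith)
    have q2 : (η + (η + Δ)) ^ 2 ≤ 2 ^ 2 := sq_le_sq' (by linarith) (by linarith)
    linarith
  have T2 : (1 + η ^ 2) ^ 2 + 8 * η ^ 2 - 12 * Δ ≤ T := by
    have : T = (1 + η ^ 2) ^ 2 + 8 * η ^ 2 + Δ * (10 * η + 2 * (η * η ^ 2)) + Δ ^ 2 * (η ^ 2 + 2) := by
      rw [hT]; ring
    rw [this, hΔ1]; linarith [sq_nonneg η, a1.1, a3.1]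
  obtain ⟨D, hD⟩ : ∃ D, D = 2 * η ^ 2 + 2 * η ^ 4 + 1 / 30 := ⟨_, rfl⟩
  have hdl : dl ε η = Δ * D := by rw [hD]; rfl
  have D0 : 0 ≤ D := by rw [hD]; positivity
  have D1 : D ≤ 5 := by rw [hD]; linarith
  clear_value Δ
  have c1 : (1 + Δ * D) ^ 2 * (1 - Δ * T / 2 + (Δ * T) ^ 2 / 2)
      ≤ 1 + Δ * (2 * D - T / 2) + 97 * Δ ^ 2 := by
    have : (1 + Δ * D) ^ 2 * (1 - Δ * T / 2 + (Δ * T) ^ 2 / 2) = 1 + Δ * (2 * D - T / 2)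
      + Δ ^ 2 * (D ^ 2 + T ^ 2 / 2) - (2 * (Δ * D) + (Δ * D) ^ 2) * ((Δ * T) * (1 - Δ * T) / 2) := by
      ring
    rw [this]
    have p1 : 0 ≤ 1 - Δ * T := by rw [hΔ1]; linarith
    have p2 : 0 ≤ (2 * (Δ * D) + (Δ * D) ^ 2) * ((Δ * T) * (1 - Δ * T) / 2) := by positivity
    have p3 : D ^ 2 + T ^ 2 / 2 ≤ 97 := by
      linarith [pow_le_pow_left₀ D0 D1 2, pow_le_pow_left₀ T0 T1 2]
    linarith [mul_le_mul_of_nonneg_left p3 (sq_nonneg Δ)]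
  have c2 : Δ * (-η ^ 2 + 7 / 2 * η ^ 4) - 13 * Δ ^ 2 ≤ Phi (η + Δ) - Phi η := by
    have : Phi (η + Δ) - Phi η = Δ * (-η ^ 2 + 7 / 2 * η ^ 4) + Δ ^ 2 * (-η - Δ / 3 + 7 * (η * η ^ 2)
      + 7 * η ^ 2 * Δ + 7 / 2 * η * Δ ^ 2 + 7 / 10 * Δ ^ 3) := by unfold Phi; ring
    rw [this]
    have p1 : -13 ≤ -η - Δ / 3 + 7 * (η * η ^ 2) + 7 * η ^ 2 * Δ + 7 / 2 * η * Δ ^ 2 + 7 / 10 * Δ ^ 3 := by
      rw [hΔ1]; linarith [sq_nonneg η, a1.1, a1.2, a3.1]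
    linarith [mul_le_mul_of_nonneg_left p1 (sq_nonneg Δ)]
  rw [hdl, htT, mul_assoc, ← mul_add]
  refine mul_le_mul_of_nonneg_left (c1.trans ?_) hΔ0.le
  have c3 : 2 * D - T / 2 ≤ -1 / 2 + 1 / 15 + (-η ^ 2 + 7 / 2 * η ^ 4) + 6 * Δ := by
    rw [hD]; linarith
  have c4 := mul_le_mul_of_nonneg_left c3 hΔ0.le
  have c5 : 116 * Δ ^ 2 ≤ Δ * (1 / 30) := by rw [hΔ1]; norm_num
  linarith

theorem discrete_ivt (f : ℕ → ℝ) (n : ℕ) (h0 : 0 ≤ f 0) (hn : f (n + 1) ≤ 0) :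
    ∃ i ≤ n, 0 ≤ f i ∧ f (i + 1) ≤ 0 := by
  induction n with
  | zero => exact ⟨0, le_rfl, h0, hn⟩
  | succ n ih =>
    by_cases h : f (n + 1) ≤ 0
    · obtain ⟨i, hi, h⟩ := ih h
      exact ⟨i, by omega, h⟩
    · exact ⟨n + 1, le_rfl, by linarith, hn⟩

end Vale.Agent.P243
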