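import Vale.Agent.P243.Area
import Vale.Agent.P243.Ineq

/-! The angular cylinder cover of the regular tetrahedron. -/

set_option linter.unusedSimpArgs false

namespace Vale.Agent.P243

open MeasureTheory Set
open scoped RealInnerProductSpace

abbrev E3 := EuclideanSpace ℝ (Fin 3)

/-- skew coordinates -/
noncomputable def pt (σ : Bool) (a b s : ℝ) : E3 :=
  if σ then !₂[(a + b) / 2, (a - b) / 2, s] else !₂[(a - b) / 2, (-a - b) / 2, -s]

theorem norm_pt (σ : Bool) (a b s : ℝ) : ‖pt σ a b s‖ = √((a ^ 2 + b ^ 2 + 2 * s ^ 2) / 2) := by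
  rw [EuclideanSpace.norm_eq]
  congr 1
  cases σ <;> simp [pt, Fin.sum_univ_three, ← abs_div, sq_abs, div_pow] <;> ring

theorem det_pt (σ : Bool) (r a b s b' s' b'' s'' : ℝ) :
    |det3 (r • pt σ a b s) (pt σ 0 b' s') (pt σ 0 b'' s'')| = |r * a * (b' * s'' - b'' * s') / 2| := by
  cases σ
  · congr 1; simp [pt, det3]; ring
  · rw [← abs_neg]; congr 1; simp [pt, det3]; ring

theorem pt_comb (σ : Bool) (a b s a' b' s' a'' b'' s'' a''' b''' s''' c c' c'' : ℝ) :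
    pt σ a b s + c • pt σ a' b' s' + c' • pt σ a'' b'' s'' + c'' • pt σ a''' b''' s''' =
      pt σ (a + c * a' + c' * a'' + c'' * a''') (b + c * b' + c' * b'' + c'' * b''')
        (s + c * s' + c' * s'' + c'' * s''') := by
  cases σ <;> ext i <;> fin_cases i <;> simp [pt] <;> ring

variable (ε : ℝ)

noncomputable def eta (i : ℕ) : ℝ := -1 + i * ε ^ 2

noncomputable def dir (σ : Bool) (η : ℝ) : E3 :=
  pt σ 1 (ε * (1 + η * (η + ε ^ 2))) (-(ε * (η + (η + ε ^ 2))))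

noncomputable def udir (σ : Bool) (η : ℝ) : E3 := ‖dir ε σ η‖⁻¹ • dir ε σ η

theorem norm_dir (σ : Bool) (η : ℝ) : ‖dir ε σ η‖ =
    √((1 + ((ε * (1 + η * (η + ε ^ 2))) ^ 2 + 2 * (ε * (η + (η + ε ^ 2))) ^ 2)) / 2) := by
  rw [dir, norm_pt]; congr 1; ring

theorem norm_dir_pos (σ : Bool) (η : ℝ) : 0 < ‖dir ε σ η‖ := by
  rw [norm_dir]; positivity

theorem norm_udir (σ : Bool) (η : ℝ) : ‖udir ε σ η‖ = 1 := by
  have := norm_dir_pos ε σ η
  rw [udir, norm_smul, norm_inv, norm_norm, inv_mul_cancel₀ this.ne']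

def base (σ : Bool) (η : ℝ) : Set (ℝ ∙ udir ε σ η)ᗮ :=
  (fun c : Fin 2 → ℝ => (ℝ ∙ udir ε σ η)ᗮ.orthogonalProjectionOnto (pt σ 0 0 1 +
    c 0 • pt σ 0 (η * (1 + dl ε η)) (-(1 + dl ε η)) +
    c 1 • pt σ 0 ((η + ε ^ 2) * (1 + dl ε η)) (-(1 + dl ε η)))) '' triC

theorem isCompact_base (σ : Bool) (η : ℝ) : IsCompact (base ε σ η) :=
  isCompact_triC.image (by fun_prop)

theorem vol_base {ε : ℝ} (hε : ε = 1 / 10000) (σ : Bool) {η : ℝ} (hη : |η| ≤ 1)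
    (hη' : |η + ε ^ 2| ≤ 1) : volume (base ε σ η) ≤ ENNReal.ofReal (√2 / 4 *
      (ε ^ 2 * (1 - ε ^ 2 * (2 / 5)) + ε ^ 2 * (Phi (η + ε ^ 2) - Phi η))) := by
  rw [base, area_image (norm_udir ε σ η), vol_triC, ← ENNReal.ofReal_mul (abs_nonneg _), udir, dir,
    det_pt]
  refine ENNReal.ofReal_le_ofReal ?_
  have h1 := cell_ineq hε hη hη' rfl
  have h2 := inv_sqrt_le (t := (ε * (1 + η * (η + ε ^ 2))) ^ 2 + 2 * (ε * (η + (η + ε ^ 2))) ^ 2)
    (by positivity)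
  rw [← norm_dir ε σ] at h2
  rw [← dir]
  have e : ‖dir ε σ η‖⁻¹ * 1 * (η * (1 + dl ε η) * -(1 + dl ε η) -
      (η + ε ^ 2) * (1 + dl ε η) * -(1 + dl ε η)) / 2
      = ‖dir ε σ η‖⁻¹ * (ε ^ 2 * (1 + dl ε η) ^ 2) / 2 := by ring
  rw [e, abs_of_nonneg (by positivity)]
  have h3 := mul_le_mul_of_nonneg_right h2 (show 0 ≤ ε ^ 2 * (1 + dl ε η) ^ 2 by positivity)
  have h4 := mul_le_mul_of_nonneg_left h1 (show 0 ≤ √2 by positivity)
  linarith

theorem mem_cyl {ε : ℝ} (hε : 0 < ε) (σ : Bool) {η a b s : ℝ}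
    (h1 : 0 ≤ b - η * (1 - s) - ε * a * (1 - η ^ 2))
    (h2 : b - (η + ε ^ 2) * (1 - s) - ε * a * (1 - (η + ε ^ 2) ^ 2) ≤ 0)
    (h5 : -dl ε η ≤ s + ε * a * (η + (η + ε ^ 2))) :
    ∃ x ∈ base ε σ η, ∃ t : ℝ, pt σ a b s = x + t • udir ε σ η := by
  have hd := dl_nonneg ε η
  refine ⟨(ℝ ∙ udir ε σ η)ᗮ.orthogonalProjectionOnto (pt σ a b s), ?_, ⟪udir ε σ η, pt σ a b s⟫,
    by rw [proj_val (norm_udir ε σ η)]; simp⟩
  have hp : 0 < ε ^ 2 * (1 + dl ε η) := by positivity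
  refine ⟨![-(b - (η + ε ^ 2) * (1 - s) - ε * a * (1 - (η + ε ^ 2) ^ 2)) / (ε ^ 2 * (1 + dl ε η)),
    (b - η * (1 - s) - ε * a * (1 - η ^ 2)) / (ε ^ 2 * (1 + dl ε η))], ⟨?_, ?_, ?_⟩, ?_⟩
  · exact div_nonneg (by linarith) hp.le
  · exact div_nonneg h1 hp.le
  · simp only [Matrix.cons_val_zero, Matrix.cons_val_one]
    rw [← add_div, div_le_one hp]
    have := mul_le_mul_of_nonneg_left h5 (sq_nonneg ε)
    linarith
  · have h0 : (ℝ ∙ udir ε σ η)ᗮ.orthogonalProjectionOnto (a • dir ε σ η) = 0 := by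
      rw [Submodule.orthogonalProjectionOnto_eq_zero_iff, Submodule.orthogonal_orthogonal,
        Submodule.mem_span_singleton]
      exact ⟨a * ‖dir ε σ η‖, by
        rw [udir, smul_smul, mul_assoc, mul_inv_cancel₀ (norm_dir_pos ε σ η).ne', mul_one]⟩
    simp only [Matrix.cons_val_zero, Matrix.cons_val_one]
    refine (add_zero _).symm.trans ?_
    rw [← h0, ← map_add, dir, pt_comb]
    congr 2
    · ring
    · field_simp; ring
    · field_simp; ring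

/-- the tetrahedron by inequalities -/
def tetI : Set E3 := {x | |x 0 + x 1| ≤ 1 + x 2 ∧ |x 0 - x 1| ≤ 1 - x 2}

theorem cover {ε : ℝ} (hε : ε = 1 / 10000) {n : ℕ} (hn : ((n + 1 : ℕ) : ℝ) * ε ^ 2 = 2) {q : E3}
    (hq : q ∈ tetI) : ∃ σ : Bool, ∃ i ≤ n, ∃ x ∈ base ε σ (eta ε i), ∃ t : ℝ,
      q = x + t • udir ε σ (eta ε i) := by
  have hε0 : 0 < ε := by rw [hε]; norm_num
  obtain ⟨ha, hb⟩ := hq
  set a := q 0 + q 1 with ha'
  set b := q 0 - q 1 with hb'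
  set s := q 2 with hs'
  have e1 : q = pt true a b s := by
    ext i; fin_cases i <;> simp [pt, ha', hb', hs']
  have e2 : q = pt false b (-a) (-s) := by
    ext i; fin_cases i <;> simp [pt, ha', hb', hs'] <;> ring
  have h0 : eta ε 0 = -1 := by simp [eta]
  have h1 : eta ε (n + 1) = 1 := by rw [eta, hn]; norm_num
  have hs : ∀ i, eta ε (i + 1) = eta ε i + ε ^ 2 := by intro i; simp [eta]; ring
  have hab : ∀ i ≤ n, |eta ε i| ≤ 1 := by
    intro i hi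
    have : (i : ℝ) * ε ^ 2 ≤ ((n + 1 : ℕ) : ℝ) * ε ^ 2 := by gcongr; omega
    have h2 : 0 ≤ (i : ℝ) * ε ^ 2 := by positivity
    rw [eta, abs_le]; constructor <;> linarith
  have a1 := abs_le.1 ha
  have b1 := abs_le.1 hb
  obtain ⟨i, hi, i1, i2⟩ := discrete_ivt
    (fun i => b - eta ε i * (1 - s) - ε * a * (1 - eta ε i ^ 2)) n
    (by simp only [h0]; linarith) (by simp only [h1]; linarith)
  obtain ⟨j, hj, j1, j2⟩ := discrete_ivt
    (fun i => -a - eta ε i * (1 - -s) - ε * b * (1 - eta ε i ^ 2)) n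
    (by simp only [h0]; linarith) (by simp only [h1]; linarith)
  simp only [hs] at i2 j2
  by_cases c1 : -dl ε (eta ε i) ≤ s + ε * a * (eta ε i + (eta ε i + ε ^ 2))
  · exact ⟨true, i, hi, e1 ▸ mem_cyl hε0 true i1 i2 c1⟩
  by_cases c2 : -dl ε (eta ε j) ≤ -s + ε * b * (eta ε j + (eta ε j + ε ^ 2))
  · exact ⟨false, j, hj, e2 ▸ mem_cyl hε0 false j1 j2 c2⟩
  exact (cover_ineq hε (hab i hi) (hab j hj) (a := a) (b := b) (s := s)
    (abs_le.2 ⟨by linarith, by linarith⟩) (abs_le.2 ⟨by linarith, by linarith⟩)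
    (abs_le.2 ⟨by linarith, by linarith⟩) i1 i2 j1 j2 (not_le.1 c1) (not_le.1 c2)).elim

theorem total_lt {ε : ℝ} (hε : ε = 1 / 10000) {n : ℕ} (hn : ((n + 1 : ℕ) : ℝ) * ε ^ 2 = 2) :
    ∑ p : Bool × Fin (n + 1), volume (base ε p.1 (eta ε p.2)) < ENNReal.ofReal √2 := by
  have hε0 : 0 < ε := by rw [hε]; norm_num
  have hs : ∀ i, eta ε (i + 1) = eta ε i + ε ^ 2 := by intro i; simp [eta]; ring
  have hab : ∀ i ≤ n + 1, |eta ε i| ≤ 1 := by
    intro i hi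
    have : (i : ℝ) * ε ^ 2 ≤ ((n + 1 : ℕ) : ℝ) * ε ^ 2 := by gcongr
    have h2 : 0 ≤ (i : ℝ) * ε ^ 2 := by positivity
    rw [eta, abs_le]; constructor <;> linarith
  let g : ℕ → ℝ := fun i => √2 / 4 *
      (ε ^ 2 * (1 - ε ^ 2 * (2 / 5)) + ε ^ 2 * (Phi (eta ε (i + 1)) - Phi (eta ε i)))
  have hg : ∀ i ≤ n, 0 ≤ g i := by
    intro i hi
    have := cell_ineq hε (hab i (by omega)) (by rw [← hs]; exact hab _ (by omega)) rfl
    rw [← hs] at this
    refine mul_nonneg (by positivity) (le_trans (mul_nonneg (by positivity) ?_) this)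
    generalize (ε * (1 + eta ε i * eta ε (i + 1))) ^ 2 + 2 * (ε * (eta ε i + eta ε (i + 1))) ^ 2 = t
    nlinarith [sq_nonneg (t - 1 / 2)]
  have h1 : ∀ p : Bool × Fin (n + 1), volume (base ε p.1 (eta ε p.2)) ≤ ENNReal.ofReal (g p.2) := by
    intro p
    have := vol_base hε p.1 (hab p.2 p.2.2.le) (by rw [← hs]; exact hab _ p.2.2)
    rwa [← hs] at this
  refine lt_of_le_of_lt (Finset.sum_le_sum fun p _ => h1 p) ?_
  rw [← ENNReal.ofReal_sum_of_nonneg fun p _ => hg _ (Nat.le_of_lt_succ p.2.2)]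
  rw [ENNReal.ofReal_lt_ofReal_iff (by positivity), Fintype.sum_prod_type]
  simp only [Finset.sum_const, Finset.card_univ, Fintype.card_bool]
  rw [Fin.sum_univ_eq_sum_range g]
  simp only [g]
  rw [← Finset.mul_sum, Finset.sum_add_distrib, ← Finset.mul_sum, ← Finset.mul_sum,
    Finset.sum_range_sub (fun i => Phi (eta ε i)), Finset.sum_const, Finset.card_range]
  have h0 : eta ε 0 = -1 := by simp [eta]
  have h2 : eta ε (n + 1) = 1 := by rw [eta, hn]; norm_num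
  rw [h0, h2, nsmul_eq_mul, nsmul_eq_mul, ← mul_assoc (ε ^ 2), mul_comm (ε ^ 2), hn]
  have : (0 : ℝ) < √2 := by positivity
  unfold Phi
  subst hε
  push_cast
  nlinarith

theorem proj_ge {K : Set E3} (hK : Convex ℝ K) (h0 : !₂[1, 1, 1] ∈ K) (h1 : !₂[-1, -1, 1] ∈ K)
    (h2 : !₂[1, -1, -1] ∈ K) (h3 : !₂[-1, 1, -1] ∈ K) {u : E3} (hu : ‖u‖ = 1) :
    ENNReal.ofReal (2 * √2) ≤ volume ((ℝ ∙ u)ᗮ.orthogonalProjectionOnto '' K) := by
  by_contra hlt
  have key : ∀ {A B C D}, A ∈ K → B ∈ K → C ∈ K → D ∈ K → |det3 u (B - A) (C - D)| < 4 * √2 := by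
    intro A B C D hA hB hC hD
    by_contra h
    exact hlt (le_trans (ENNReal.ofReal_le_ofReal (by linarith)) (quad_le hu hK hA hB hC hD))
  have q1 := abs_lt.1 (key h0 h1 h2 h3)
  have q2 := abs_lt.1 (key h0 h2 h1 h3)
  have q3 := abs_lt.1 (key h0 h3 h1 h2)
  have f0 := abs_lt.1 (key h1 h2 h3 h1)
  have f1 := abs_lt.1 (key h0 h2 h3 h0)
  have f2 := abs_lt.1 (key h0 h1 h3 h0)
  have f3 := abs_lt.1 (key h0 h1 h2 h0)
  simp [det3] at q1 q2 q3 f0 f1 f2 f3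
  have hs := unit_sq hu
  have r2 : √2 * √2 = 2 := Real.mul_self_sqrt (by norm_num)
  have r0 : (0 : ℝ) < √2 := by positivity
  have a0 : |u 0| < √2 / 2 := abs_lt.2 ⟨by linarith, by linarith⟩
  have a1 : |u 1| < √2 / 2 := abs_lt.2 ⟨by linarith, by linarith⟩
  have a2 : |u 2| < √2 / 2 := abs_lt.2 ⟨by linarith, by linarith⟩
  have a3 : |u 0| + |u 1| + |u 2| < √2 := by
    rcases abs_cases (u 0) with a | a <;> rcases abs_cases (u 1) with b | b <;>
      rcases abs_cases (u 2) with c | c <;> linarith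
  rw [← abs_mul_abs_self (u 0), ← abs_mul_abs_self (u 1), ← abs_mul_abs_self (u 2)] at hs
  nlinarith [mul_le_mul_of_nonneg_left a0.le (abs_nonneg (u 0)),
    mul_le_mul_of_nonneg_left a1.le (abs_nonneg (u 1)),
    mul_le_mul_of_nonneg_left a2.le (abs_nonneg (u 2))]

theorem hull_eq : convexHull ℝ ({!₂[1, 1, 1], !₂[-1, -1, 1], !₂[1, -1, -1], !₂[-1, 1, -1]} : Set E3)
    = tetI := by
  apply Subset.antisymm
  · refine convexHull_min ?_ ?_
    · rintro _ (rfl | rfl | rfl | rfl) <;> constructor <;> simp <;> norm_num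
    · rintro x ⟨x1, x2⟩ y ⟨y1, y2⟩ a b ha hb hab
      rw [abs_le] at x1 x2 y1 y2
      constructor <;> rw [abs_le] <;> simp only [PiLp.add_apply, PiLp.smul_apply, smul_eq_mul] <;>
        constructor <;> nlinarith [mul_le_mul_of_nonneg_left x1.1 ha, mul_le_mul_of_nonneg_left x1.2 ha,
          mul_le_mul_of_nonneg_left x2.1 ha, mul_le_mul_of_nonneg_left x2.2 ha,
          mul_le_mul_of_nonneg_left y1.1 hb, mul_le_mul_of_nonneg_left y1.2 hb,
          mul_le_mul_of_nonneg_left y2.1 hb, mul_le_mul_of_nonneg_left y2.2 hb]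
  · rintro x ⟨x1, x2⟩
    rw [abs_le] at x1 x2
    have := (convex_convexHull ℝ ({!₂[1, 1, 1], !₂[-1, -1, 1], !₂[1, -1, -1], !₂[-1, 1, -1]} :
      Set E3)).sum_mem (t := Finset.univ)
      (w := ![(1 + x 0 + x 1 + x 2) / 4, (1 - x 0 - x 1 + x 2) / 4, (1 + x 0 - x 1 - x 2) / 4,
        (1 - x 0 + x 1 - x 2) / 4])
      (z := ![!₂[1, 1, 1], !₂[-1, -1, 1], !₂[1, -1, -1], !₂[-1, 1, -1]])
      (by intro i _; fin_cases i <;> simp <;> linarith)
      (by simp [Fin.sum_univ_four]; ring)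
      (by intro i _; apply subset_convexHull; fin_cases i <;> simp)
    convert this using 1
    ext i; fin_cases i <;> simp [Fin.sum_univ_four] <;> ring

theorem interior_tetI : (interior tetI).Nonempty := by
  refine ⟨0, mem_interior.2 ⟨{x : E3 | |x 0 + x 1| < 1 + x 2 ∧ |x 0 - x 1| < 1 - x 2},
    fun x hx => ⟨hx.1.le, hx.2.le⟩, ?_, by simp⟩⟩
  have h1 : IsOpen {x : E3 | |x 0 + x 1| < 1 + x 2} := isOpen_lt (by fun_prop) (by fun_prop)
  have h2 : IsOpen {x : E3 | |x 0 - x 1| < 1 - x 2} := isOpen_lt (by fun_prop) (by fun_prop)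
  exact h1.inter h2

end Vale.Agent.P243
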